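import Vale.Agent.P127.Gen2

open MeasureTheory Set Metric
open scoped NNReal ENNReal

namespace Vale.Agent.Results.P127.GenericKakeya

/-- Euclidean space `ℝ^n`. -/
abbrev E (n : ℕ) : Type := EuclideanSpace ℝ (Fin n)

/-- The unit sphere `S^(n-1)` of `ℝ^n`, the set of directions. -/
abbrev S (n : ℕ) : Type := sphere (0 : E n) 1

/-- Surface measure on `S^(n-1)`. -/
noncomputable abbrev sigma (n : ℕ) : Measure (S n) := (volume : Measure (E n)).toSphere

/-- The product `A u` of the real `n × n` matrix `A`, given by its columns, with `u`. -/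
noncomputable def mul (n : ℕ) (A : Fin n → E n) (u : E n) : E n := ∑ j, u j • A j

/-- The Kakeya dimension conjecture for almost every linear perturbation of an arbitrary
measurable choice `e ↦ a e` of the segments. -/
theorem result (n : ℕ) (hn : 2 ≤ n) (a : S n → E n) (ha : Measurable a) :
    ∀ᵐ A : Fin n → E n ∂volume,
      (∀ K : Set (E n), dimH K < n →
        ∀ᵐ e ∂sigma n, volume {t : ℝ | (a e + mul n A e) + t • (e : E n) ∈ K} = 0) ∧
      (∀ D : Set (S n), sigma n D ≠ 0 → ∀ K : Set (E n),
        (∀ e ∈ D, ∀ t ∈ Icc (0 : ℝ) 1, (a e + mul n A e) + t • (e : E n) ∈ K) →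
          dimH K = n) := by
  obtain ⟨k, rfl⟩ : ∃ k, n = k + 1 := ⟨n - 1, by omega⟩
  filter_upwards [Vale.Agent.P127.Gen2.ae_null (k := k) (by omega) a ha] with A hA
  refine ⟨hA, ?_⟩
  intro D hD K hK
  apply le_antisymm
  · calc dimH K ≤ dimH (univ : Set (E (k + 1))) := dimH_mono (subset_univ K)
      _ = ((k + 1 : ℕ) : ℝ≥0∞) := by
          rw [Real.dimH_univ_eq_finrank (E (k + 1))]
          simp
  · by_contra hcon
    rw [not_le] at hcon
    apply hD
    refine measure_mono_null ?_ (hA K hcon)
    intro e he h0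
    have h1 : (volume : Measure ℝ) (Icc (0 : ℝ) 1) = 0 :=
      measure_mono_null (fun t ht => hK e he t ht) h0
    simp at h1

end Vale.Agent.Results.P127.GenericKakeya
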