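import Vale.Agent.P127.Good
import Vale.Agent.P127.Fin

open MeasureTheory Set Metric
open scoped NNReal ENNReal

namespace Vale.Agent.Results.P127.KakeyaPartial

/-- Euclidean space `ℝ^n`. -/
abbrev E (n : ℕ) : Type := EuclideanSpace ℝ (Fin n)

/-- The unit sphere `S^(n-1)` of `ℝ^n`, the set of directions. -/
abbrev S (n : ℕ) : Type := sphere (0 : E n) 1

/-- Surface measure on `S^(n-1)`. -/
noncomputable def sigma (n : ℕ) : Measure (S n) := (volume : Measure (E n)).toSphere

/-- The choice `b e = a e + A e`, where `A` is the real `n × n` matrix with columns `A j`. -/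
noncomputable def moved (n : ℕ) (a : S n → E n) (A : Fin n → E n) (e : S n) : E n :=
  a e + ∑ j, (e : E n) j • A j

/-- Every set of dimension less than `n` meets almost every line `b e + ℝ e` in a null set. -/
def MeetsNull (n : ℕ) (b : S n → E n) : Prop :=
  ∀ K : Set (E n), dimH K < n → ∀ᵐ e ∂sigma n, volume {t : ℝ | b e + t • (e : E n) ∈ K} = 0

/-- Every set which contains the segments `{b e + t e : 0 ≤ t ≤ 1}` for all `e` in a set of
positive surface measure has dimension `n`. -/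
def FullDim (n : ℕ) (b : S n → E n) : Prop :=
  ∀ D : Set (S n), sigma n D ≠ 0 → ∀ K : Set (E n),
    (∀ e ∈ D, ∀ t ∈ Icc (0 : ℝ) 1, b e + t • (e : E n) ∈ K) → dimH K = n

/-- The tube `T_δ(b, e)`. -/
def tube (n : ℕ) (b : E n) (e : S n) (δ : ℝ) : Set (E n) :=
  {x | ∃ t : ℝ, ∃ u : E n, |t| ≤ 1 / 2 ∧ inner ℝ u (e : E n) = 0 ∧ ‖u‖ ≤ δ ∧
    x = b + t • (e : E n) + u}

/-- The average of `f` over the tube `T_δ(b, e)`. -/
noncomputable def avg (n : ℕ) (f : E n → ℝ≥0∞) (b : E n) (e : S n) (δ : ℝ) : ℝ≥0∞ :=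
  (volume (tube n b e δ))⁻¹ * ∫⁻ y in tube n b e δ, f y

/-- The norm of `f` in `L²`. -/
noncomputable def norm2 (n : ℕ) (f : E n → ℝ≥0∞) : ℝ≥0∞ :=
  (∫⁻ y, f y ^ (2 : ℝ)) ^ (1 / 2 : ℝ)

/-- The maximal bound `L² → L¹`, with `δ^(-ε)`, for the tubes centred at `b e`. -/
def MaximalBound (n : ℕ) (b : S n → E n) : Prop :=
  ∀ ε : ℝ, 0 < ε → ∃ C : ℝ≥0∞, C ≠ ⊤ ∧ ∀ δ : ℝ, 0 < δ → δ ≤ 1 / 2 →
    ∀ f : E n → ℝ≥0∞, Measurable f →
      ∫⁻ e, avg n f (b e) e δ ∂sigma n ≤ C * ENNReal.ofReal δ ^ (-ε) * norm2 n f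

/-- The maximal bound `L² → L²`, with `δ^(-ε)`, for the tubes centred at `b e`, outside a set of
directions of arbitrarily small measure. -/
def MaximalBound2 (n : ℕ) (b : S n → E n) : Prop :=
  ∀ η : ℝ≥0∞, η ≠ 0 → ∃ D : Set (S n), MeasurableSet D ∧ sigma n Dᶜ ≤ η ∧
    ∀ ε : ℝ, 0 < ε → ∃ C : ℝ≥0∞, C ≠ ⊤ ∧ ∀ δ : ℝ, 0 < δ → δ ≤ 1 / 2 →
      ∀ f : E n → ℝ≥0∞, Measurable f →
        ∫⁻ e in D, avg n f (b e) e δ ^ 2 ∂sigma n ≤
          C * ENNReal.ofReal δ ^ (-ε) * ∫⁻ y, f y ^ (2 : ℝ)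

/-- A family `F` of lines `x + ℝ e`, given by pairs `(x, e)`, is rectifiable if, up to a set of
`(n-1)`-dimensional Hausdorff measure zero, it is covered by countably many Lipschitz images of
subsets of `ℝ^(n-1)`. -/
def Rectifiable (n : ℕ) (F : Set (E n × S n)) : Prop :=
  ∃ (Q : ℕ → Set (E (n - 1))) (φ : ℕ → E (n - 1) → E n × S n),
    (∀ i, ∃ C : ℝ≥0, LipschitzOnWith C (φ i) (Q i)) ∧
      (μH[(n : ℝ) - 1] : Measure (E n × S n)) (F \ ⋃ i, φ i '' Q i) = 0

/-- A null set `N` meets the lines of `F` in null sets, except those whose direction is in a null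
set of directions. -/
def LinesNull (n : ℕ) (F : Set (E n × S n)) : Prop :=
  ∀ N : Set (E n), volume N = 0 →
    sigma n {e | ∃ x, (x, e) ∈ F ∧ volume {t : ℝ | x + t • (e : E n) ∈ N} ≠ 0} = 0

/-- `K` contains a unit segment of the line `x + ℝ e`. -/
def HasUnitSegment (n : ℕ) (K : Set (E n)) (x : E n) (e : S n) : Prop :=
  ∃ s : ℝ, ∀ t ∈ Icc s (s + 1), x + t • (e : E n) ∈ K

/-- If the directions of `F` have positive measure, then every set which contains a unit segment
of each line of `F` has positive measure and dimension `n`. -/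
def FullMeasure (n : ℕ) (F : Set (E n × S n)) : Prop :=
  sigma n (Prod.snd '' F) ≠ 0 →
    ∀ K : Set (E n), (∀ q ∈ F, HasUnitSegment n K q.1 q.2) → volume K ≠ 0 ∧ dimH K = n

/-- For every measurable choice of segments and almost every linear perturbation of it: the
Kakeya dimension conjecture and maximal estimates; for rectifiable families of lines: positive
measure. -/
theorem result (n : ℕ) (hn : 2 ≤ n) :
    (∀ a : S n → E n, Measurable a → ∀ᵐ A : Fin n → E n ∂volume,
      MeetsNull n (moved n a A) ∧ FullDim n (moved n a A) ∧ MaximalBound n (moved n a A) ∧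
        MaximalBound2 n (moved n a A)) ∧
    (∀ F : Set (E n × S n), Rectifiable n F → LinesNull n F ∧ FullMeasure n F) := by
  have hfr : Module.finrank ℝ (E n) = n := by simp
  have hdim : Module.finrank ℝ (E n) = Module.finrank ℝ (E (n - 1)) + 1 := by
    simp only [finrank_euclideanSpace, Fintype.card_fin]
    omega
  have hfull : ∀ K : Set (E n), volume K ≠ 0 → dimH K = n := by
    intro K hK
    have := Vale.Agent.P127.Fin.dim_full (volume : Measure (E n)) hK
    rwa [hfr] at this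
  refine ⟨?_, ?_⟩
  · intro a ha
    obtain ⟨k, rfl⟩ : ∃ k, n = k + 1 := ⟨n - 1, by omega⟩
    filter_upwards [Vale.Agent.P127.Gen2.ae_null (k := k) (by omega) a ha,
      Vale.Agent.P127.Max.ae_max (k := k) (by omega) a ha,
      Vale.Agent.P127.Good.ae_max2 (k := k) (by omega) a ha] with A hA hM hM2
    refine ⟨hA, ?_, hM, hM2⟩
    intro D hD K hK
    apply le_antisymm
    · calc dimH K ≤ dimH (univ : Set (E (k + 1))) := dimH_mono (subset_univ K)
        _ = ((k + 1 : ℕ) : ℝ≥0∞) := by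
            rw [Real.dimH_univ_eq_finrank (E (k + 1))]
            simp
    · by_contra hcon
      rw [not_le] at hcon
      apply hD
      refine measure_mono_null ?_ (hA K hcon)
      intro e he h0
      have h1 : (volume : Measure ℝ) (Icc (0 : ℝ) 1) = 0 :=
        measure_mono_null (fun t ht => hK e he t ht) h0
      simp at h1
  · rintro F ⟨Q, φ, hφ, hF⟩
    refine ⟨?_, ?_⟩
    · intro N hN
      exact Vale.Agent.P127.Fin.rect_null hdim volume F Q φ hφ (by rw [hfr]; exact hF) hN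
    · intro hpos K hK
      have h := Vale.Agent.P127.Fin.rect_pos hdim volume F Q φ hφ (by rw [hfr]; exact hF) hpos K hK
      exact ⟨h, hfull K h⟩

end Vale.Agent.Results.P127.KakeyaPartial
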