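import Vale.Agent.P127.Fin

open MeasureTheory Set Metric
open scoped NNReal ENNReal

namespace Vale.Agent.Results.P127.RegularKakeya

/-- Euclidean space `ℝ^n`. -/
abbrev E (n : ℕ) : Type := EuclideanSpace ℝ (Fin n)

/-- The unit sphere `S^(n-1)` of `ℝ^n`, the set of directions. -/
abbrev S (n : ℕ) : Type := sphere (0 : E n) 1

/-- Surface measure on `S^(n-1)`. -/
noncomputable abbrev sigma (n : ℕ) : Measure (S n) := (volume : Measure (E n)).toSphere

/-- A family `F` of lines `x + ℝ e`, given by pairs `(x, e)`, is rectifiable if, up to a set of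
`(n-1)`-dimensional Hausdorff measure zero, it is covered by countably many Lipschitz images of
subsets of `ℝ^(n-1)`. -/
def Rectifiable (n : ℕ) (F : Set (E n × S n)) : Prop :=
  ∃ (Q : ℕ → Set (E (n - 1))) (φ : ℕ → E (n - 1) → E n × S n),
    (∀ i, ∃ C : ℝ≥0, LipschitzOnWith C (φ i) (Q i)) ∧
      (μH[(n : ℝ) - 1] : Measure (E n × S n)) (F \ ⋃ i, φ i '' Q i) = 0

/-- `K` contains a unit segment of the line `x + ℝ e`. -/
def HasUnitSegment (n : ℕ) (K : Set (E n)) (x : E n) (e : S n) : Prop :=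
  ∃ s : ℝ, ∀ t ∈ Icc s (s + 1), x + t • (e : E n) ∈ K

/-- The Kakeya dimension conjecture, in every dimension, for rectifiable families of lines. -/
theorem result (n : ℕ) (hn : 1 ≤ n) :
    (∀ F : Set (E n × S n), Rectifiable n F → ∀ N : Set (E n), volume N = 0 →
      sigma n {e | ∃ x, (x, e) ∈ F ∧ volume {t : ℝ | x + t • (e : E n) ∈ N} ≠ 0} = 0) ∧
    (∀ F : Set (E n × S n), Rectifiable n F → sigma n (Prod.snd '' F) ≠ 0 →
      ∀ K : Set (E n), (∀ q ∈ F, HasUnitSegment n K q.1 q.2) → volume K ≠ 0 ∧ dimH K = n) ∧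
    (∀ (a : S n → E n) (D : ℕ → Set (S n)), (∀ i, ∃ C : ℝ≥0, LipschitzOnWith C a (D i)) →
      sigma n (⋃ i, D i) ≠ 0 →
      ∀ K : Set (E n), (∀ e ∈ ⋃ i, D i, ∀ t ∈ Icc (0 : ℝ) 1, a e + t • (e : E n) ∈ K) →
        volume K ≠ 0 ∧ dimH K = n) := by
  have hfr : Module.finrank ℝ (E n) = n := by simp
  have hdim : Module.finrank ℝ (E n) = Module.finrank ℝ (E (n - 1)) + 1 := by
    simp only [finrank_euclideanSpace, Fintype.card_fin]
    omega
  have hfull : ∀ K : Set (E n), volume K ≠ 0 → dimH K = n := by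
    intro K hK
    have := Vale.Agent.P127.Fin.dim_full (volume : Measure (E n)) hK
    rwa [hfr] at this
  refine ⟨?_, ?_, ?_⟩
  · rintro F ⟨Q, φ, hφ, hF⟩ N hN
    exact Vale.Agent.P127.Fin.rect_null hdim volume F Q φ hφ (by rw [hfr]; exact hF) hN
  · rintro F ⟨Q, φ, hφ, hF⟩ hpos K hK
    have h := Vale.Agent.P127.Fin.rect_pos hdim volume F Q φ hφ (by rw [hfr]; exact hF) hpos K hK
    exact ⟨h, hfull K h⟩
  · intro a D hL hpos K hK
    have h := Vale.Agent.P127.Fin.sel_pos volume a D hL hpos K hK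
    exact ⟨h, hfull K h⟩

end Vale.Agent.Results.P127.RegularKakeya
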